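import Mathlib

/-! Deterministic part: pairings inside one Jordan block and the choice of the weights. -/

open Set Filter Topology

namespace Vale.Agent.P131

/-- Product of `i` consecutive weights. -/
noncomputable def Wp (w : ℤ → ℝ) (i : ℕ) (m : ℤ) : ℝ := ∏ t ∈ Finset.range i, w (m + t)

/-- Pairing inside the block `[1, l]`. -/
noncomputable def pair (l : ℕ) (w : ℤ → ℝ) (F G : ℤ → ℂ) (i : ℕ) : ℂ :=
  ∑ m ∈ Finset.Icc (1 : ℤ) (l - i), (Wp w i m : ℂ) * F m * G (m + i)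

theorem Wp_shift (w : ℤ → ℝ) (i : ℕ) (a : ℤ) : Wp w i (a + 1) * w a = Wp w i a * w (a + i) := by
  have h1 := Finset.prod_range_succ (fun t : ℕ => w (a + t)) i
  have h2 := Finset.prod_range_succ' (fun t : ℕ => w (a + t)) i
  simp only [Nat.cast_add, Nat.cast_one, Nat.cast_zero, add_zero] at h2
  rw [Wp, Wp, ← h1, h2]
  congr 1
  exact Finset.prod_congr rfl fun t _ => by rw [add_assoc, add_comm 1]

theorem pair_pos {l : ℕ} {w : ℤ → ℝ} {F G : ℤ → ℂ} (hw : ∀ m, 0 < w m) {n j : ℤ} (h1 : 1 ≤ n)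
    (h2 : n ≤ j) (h3 : j ≤ l) (hF : F n ≠ 0) (hG : G j ≠ 0) :
    0 < ∑ i ∈ Finset.range l, ‖pair l w F G i‖ := by
  classical
  obtain ⟨a, ha, hamin⟩ := ((Finset.Icc (1 : ℤ) l).filter fun m => F m ≠ 0).exists_min_image id
    ⟨n, by simp [h1, h2.trans h3, hF]⟩
  obtain ⟨b, hb, hbmax⟩ := ((Finset.Icc (1 : ℤ) l).filter fun m => G m ≠ 0).exists_max_image id
    ⟨j, by simp [h1.trans h2, h3, hG]⟩
  simp only [Finset.mem_filter, Finset.mem_Icc, id] at ha hb hamin hbmax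
  have han := hamin n ⟨⟨h1, h2.trans h3⟩, hF⟩
  have hjb := hbmax j ⟨⟨h1.trans h2, h3⟩, hG⟩
  obtain ⟨i, hi⟩ := Int.eq_ofNat_of_zero_le (show 0 ≤ b - a by omega)
  refine Finset.sum_pos' (fun _ _ => norm_nonneg _) ⟨i, Finset.mem_range.mpr (by omega), ?_⟩
  rw [norm_pos_iff, pair, Finset.sum_eq_single a]
  · have h4 : a + i = b := by omega
    have h5 : Wp w i a ≠ 0 := (Finset.prod_pos fun t _ => hw _).ne'
    rw [h4]
    exact mul_ne_zero (mul_ne_zero (Complex.ofReal_ne_zero.mpr h5) ha.2) hb.2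
  · intro m hm hma
    rw [Finset.mem_Icc] at hm
    by_cases hFm : F m = 0
    · simp [hFm]
    · have h4 := hamin m ⟨⟨hm.1, by omega⟩, hFm⟩
      have h5 : G (m + i) = 0 := by
        by_contra h6
        have := hbmax (m + i) ⟨⟨by omega, by omega⟩, h6⟩
        omega
      simp [h5]
  · intro h
    exact absurd (Finset.mem_Icc.mpr ⟨ha.1.1, by omega⟩) h

theorem compact_aux (l : ℕ) {s c : ℝ} (hs : 0 < s) (hc : 0 < c) :
    ∃ δ > 0, ∀ (w : ℤ → ℝ) (F G : ℤ → ℂ), (∀ m, w m ∈ Icc s 1) → (∀ m, ‖F m‖ ≤ c⁻¹) →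
      (∀ m, ‖G m‖ ≤ c⁻¹) → ∀ n j : ℤ, 1 ≤ n → n ≤ j → j ≤ l → c ≤ ‖F n‖ → c ≤ ‖G j‖ →
      δ ≤ ∑ i ∈ Finset.range l, ‖pair l w F G i‖ := by
  classical
  set K₀ : Set ((ℤ → ℝ) × (ℤ → ℂ) × (ℤ → ℂ)) := (univ.pi fun _ => Icc s 1) ×ˢ
    (univ.pi fun _ => Metric.closedBall 0 c⁻¹) ×ˢ (univ.pi fun _ => Metric.closedBall 0 c⁻¹)
  have hK₀ : IsCompact K₀ := (isCompact_univ_pi fun _ => isCompact_Icc).prod
    ((isCompact_univ_pi fun _ => isCompact_closedBall _ _).prod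
      (isCompact_univ_pi fun _ => isCompact_closedBall _ _))
  set C : Set ((ℤ → ℝ) × (ℤ → ℂ) × (ℤ → ℂ)) :=
    ⋃ p ∈ (Finset.Icc (1 : ℤ) l ×ˢ Finset.Icc (1 : ℤ) l).filter fun p => p.1 ≤ p.2,
      {x | c ≤ ‖x.2.1 p.1‖ ∧ c ≤ ‖x.2.2 p.2‖}
  have hC : IsClosed C := isClosed_biUnion_finset fun p _ =>
    IsClosed.and (isClosed_le continuous_const (by fun_prop))
      (isClosed_le continuous_const (by fun_prop))
  have hcont : Continuous fun x : (ℤ → ℝ) × (ℤ → ℂ) × (ℤ → ℂ) =>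
      ∑ i ∈ Finset.range l, ‖pair l x.1 x.2.1 x.2.2 i‖ := by
    unfold pair Wp
    fun_prop
  obtain ⟨δ, hδ, h⟩ := (hK₀.inter_right hC).exists_forall_le' hcont.continuousOn (a := 0) (by
    rintro ⟨w, F, G⟩ ⟨⟨hw, -⟩, hx⟩
    simp only [C, mem_iUnion, Finset.mem_filter, Finset.mem_product, Finset.mem_Icc] at hx
    obtain ⟨p, ⟨⟨h1, h2⟩, h3⟩, h4, h5⟩ := hx
    exact pair_pos (fun m => hs.trans_le (hw m (mem_univ _)).1) h1.1 h3 h2.2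
      (norm_pos_iff.mp (hc.trans_le h4)) (norm_pos_iff.mp (hc.trans_le h5)))
  refine ⟨δ, hδ, fun w F G hw hF hG n j h1 h2 h3 h4 h5 => h (w, F, G) ⟨⟨fun m _ => hw m,
    fun m _ => mem_closedBall_zero_iff.mpr (hF m), fun m _ => mem_closedBall_zero_iff.mpr (hG m)⟩,
    ?_⟩⟩
  simp only [C, mem_iUnion, Finset.mem_filter, Finset.mem_product, Finset.mem_Icc]
  exact ⟨(n, j), ⟨⟨⟨h1, h2.trans h3⟩, h1.trans h2, h3⟩, h2⟩, h4, h5⟩

/-- The lower bound property at level `l`. -/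
def Low (l : ℕ) (s δ : ℝ) : Prop :=
  ∀ (w : ℤ → ℝ) (F G : ℤ → ℂ), (∀ m, w m ≤ 1) → (∀ m : ℤ, 1 ≤ m → m < l → s ≤ w m) →
    (∀ m, ‖F m‖ ≤ l) → (∀ m, ‖G m‖ ≤ l) → ∀ n j : ℤ, 1 ≤ n → n ≤ j → j ≤ l →
      (l : ℝ)⁻¹ ≤ ‖F n‖ → (l : ℝ)⁻¹ ≤ ‖G j‖ → δ ≤ ∑ i ∈ Finset.range l, ‖pair l w F G i‖

theorem exists_low (k : ℕ) {s : ℝ} (hs : 0 < s) (hs1 : s ≤ 1) : ∃ δ > 0, Low (k + 1) s δ := by
  obtain ⟨δ, hδ, h⟩ := compact_aux (k + 1) hs (c := ((k + 1 : ℕ) : ℝ)⁻¹) (by positivity)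
  refine ⟨δ, hδ, fun w F G hw1 hw hF hG n j h1 h2 h3 h4 h5 => ?_⟩
  rw [inv_inv] at h
  refine (h (fun m => max (w m) s) F G (fun m => ⟨le_max_right _ _, max_le (hw1 m) hs1⟩) hF hG
    n j h1 h2 h3 h4 h5).trans_eq (Finset.sum_congr rfl fun i _ => ?_)
  congr 1
  refine Finset.sum_congr rfl fun m hm => ?_
  rw [Finset.mem_Icc] at hm
  have : Wp (fun m => max (w m) s) i m = Wp w i m := Finset.prod_congr rfl fun t ht => by
    rw [Finset.mem_range] at ht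
    exact max_eq_left (hw _ (by omega) (by omega))
  rw [this]

theorem exists_weights : ∃ s : ℕ → ℝ, (∀ k, 0 < s k) ∧ (∀ k, s k ≤ 1) ∧ Antitone s ∧
    ∀ k, ∃ δ, Low (k + 1) (s k) δ ∧ ((k + 1 : ℕ) : ℝ) ^ 3 * (s (k + 1) / s k) < δ := by
  have h : ∀ (k : ℕ) (x : ℝ), ∃ δ > 0, 0 < x → x ≤ 1 → Low (k + 1) x δ := by
    intro k x
    by_cases hx : 0 < x ∧ x ≤ 1
    · obtain ⟨δ, hδ, h⟩ := exists_low k hx.1 hx.2
      exact ⟨δ, hδ, fun _ _ => h⟩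
    · exact ⟨1, one_pos, fun h1 h2 => absurd ⟨h1, h2⟩ hx⟩
  choose δ hδ hlow using h
  let s : ℕ → ℝ := fun k =>
    Nat.rec 1 (fun k x => x * min 1 (δ k x / (2 * ((k + 1 : ℕ) : ℝ) ^ 3))) k
  have hs : ∀ k, s (k + 1) = s k * min 1 (δ k (s k) / (2 * ((k + 1 : ℕ) : ℝ) ^ 3)) := fun _ => rfl
  have hpos : ∀ k, 0 < s k := by
    intro k
    induction k with
    | zero => exact one_pos
    | succ k ih =>
      have := hδ k (s k)
      rw [hs]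
      positivity
  have hanti : Antitone s := antitone_nat_of_succ_le fun k => by
    rw [hs]
    exact mul_le_of_le_one_right (hpos k).le (min_le_left _ _)
  have h1 : ∀ k, s k ≤ 1 := fun k => hanti (Nat.zero_le k)
  refine ⟨s, hpos, h1, hanti, fun k => ⟨δ k (s k), hlow k _ (hpos k) (h1 k), ?_⟩⟩
  rw [hs, mul_div_cancel_left₀ _ (hpos k).ne']
  have h2 := hδ k (s k)
  have h3 : (0 : ℝ) < ((k + 1 : ℕ) : ℝ) ^ 3 := by positivity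
  refine (mul_le_mul_of_nonneg_left (min_le_right _ _) h3.le).trans_lt ?_
  rw [mul_div_assoc', div_lt_iff₀ (by positivity)]
  nlinarith

theorem Wp_nonneg {w : ℤ → ℝ} (hw : ∀ m, 0 ≤ w m) (i : ℕ) (m : ℤ) : 0 ≤ Wp w i m :=
  Finset.prod_nonneg fun _ _ => hw _

theorem Wp_le_one {w : ℤ → ℝ} (hw : ∀ m, 0 ≤ w m) (hw1 : ∀ m, w m ≤ 1) (i : ℕ) (m : ℤ) :
    Wp w i m ≤ 1 :=
  Finset.prod_le_one (fun _ _ => hw _) fun _ _ => hw1 _

theorem Wp_le {w : ℤ → ℝ} (hw : ∀ m, 0 ≤ w m) (hw1 : ∀ m, w m ≤ 1) {i : ℕ} {m a : ℤ}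
    (h1 : m ≤ a) (h2 : a < m + i) : Wp w i m ≤ w a := by
  obtain ⟨t, ht⟩ := Int.eq_ofNat_of_zero_le (show 0 ≤ a - m by omega)
  have h3 : t ∈ Finset.range i := Finset.mem_range.mpr (by omega)
  rw [Wp, ← Finset.mul_prod_erase _ _ h3, show m + t = a by omega]
  exact mul_le_of_le_one_right (hw a) (Finset.prod_le_one (fun _ _ => hw _) fun _ _ => hw1 _)

theorem pair_le {l i : ℕ} {w d : ℤ → ℝ} {F G : ℤ → ℂ} {ε a b : ℝ} (hw : ∀ m, 0 ≤ w m)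
    (hw1 : ∀ m, w m ≤ 1) (hwl : w l ≤ ε) (hd : ∀ m : ℤ, 1 ≤ m → m ≤ l → d m = 1)
    (hd' : ∀ m : ℤ, ¬(1 ≤ m ∧ m ≤ l) → |d m| ≤ ε) (hF : HasSum (fun m => ‖F m‖ ^ 2) a)
    (hG : HasSum (fun m => ‖G m‖ ^ 2) b)
    (h0 : HasSum (fun m => ((Wp w i m * d m : ℝ) : ℂ) * F m * G (m + i)) 0) :
    ‖pair l w F G i‖ ≤ ε / 2 * (a + b) := by
  classical
  have hε : 0 ≤ ε := (hw l).trans hwl
  have h1 : HasSum (fun m => if m ∈ Finset.Icc (1 : ℤ) (l - i) then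
      (Wp w i m : ℂ) * F m * G (m + i) else 0) (pair l w F G i) := by
    have := hasSum_sum_of_ne_finset_zero (f := fun m => if m ∈ Finset.Icc (1 : ℤ) (l - i) then
      (Wp w i m : ℂ) * F m * G (m + i) else 0) (s := Finset.Icc (1 : ℤ) (l - i))
      (L := SummationFilter.unconditional ℤ) fun m hm => if_neg hm
    rwa [Finset.sum_congr rfl fun m hm => if_pos hm] at this
  have h2 := h1.sub h0
  rw [sub_zero] at h2
  have hG' : HasSum (fun m => ‖G (m + i)‖ ^ 2) b := (Equiv.addRight (i : ℤ)).hasSum_iff.mpr hG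
  refine h2.norm_le_of_bounded ((hF.add hG').mul_left (ε / 2)) fun m => ?_
  split_ifs with hm
  · rw [Finset.mem_Icc] at hm
    rw [hd m hm.1 (by omega), mul_one, sub_self, norm_zero]
    positivity
  · have h3 : |Wp w i m * d m| ≤ ε := by
      rw [abs_mul, abs_of_nonneg (Wp_nonneg hw i m)]
      by_cases h4 : 1 ≤ m ∧ m ≤ l
      · rw [hd m h4.1 h4.2, abs_one, mul_one]
        rw [Finset.mem_Icc] at hm
        exact (Wp_le hw hw1 h4.2 (by omega)).trans hwl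
      · exact (mul_le_of_le_one_left (abs_nonneg _) (Wp_le_one hw hw1 i m)).trans (hd' m h4)
    rw [zero_sub, norm_neg, norm_mul, norm_mul, Complex.norm_real, Real.norm_eq_abs, mul_assoc]
    refine (mul_le_mul_of_nonneg_right h3 (by positivity)).trans ?_
    have := mul_le_mul_of_nonneg_left (sq_nonneg (‖F m‖ - ‖G (m + i)‖)) hε
    nlinarith

theorem norm_le_of_hasSum {F : ℤ → ℂ} {a x : ℝ} (hF : HasSum (fun m => ‖F m‖ ^ 2) a)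
    (hx : 0 ≤ x) (ha : a ≤ x ^ 2) (m : ℤ) : ‖F m‖ ≤ x :=
  (pow_le_pow_iff_left₀ (norm_nonneg _) hx two_ne_zero).mp
    ((le_hasSum hF m fun _ _ => sq_nonneg _).trans ha)

/-- The deterministic contradiction. -/
theorem det {l : ℕ} {s δ ε : ℝ} (hlow : Low l s δ) (hδ : (l : ℝ) ^ 3 * ε < δ) {w d : ℤ → ℝ}
    {F G : ℤ → ℂ} {a b : ℝ} (hw : ∀ m, 0 ≤ w m) (hw1 : ∀ m, w m ≤ 1)
    (hws : ∀ m : ℤ, 1 ≤ m → m < l → s ≤ w m) (hwl : w l ≤ ε) (hd : ∀ m : ℤ, 1 ≤ m → m ≤ l → d m = 1)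
    (hd' : ∀ m : ℤ, ¬(1 ≤ m ∧ m ≤ l) → |d m| ≤ ε) (hF : HasSum (fun m => ‖F m‖ ^ 2) a)
    (hG : HasSum (fun m => ‖G m‖ ^ 2) b) (ha : a ≤ (l : ℝ) ^ 2) (hb : b ≤ (l : ℝ) ^ 2)
    {n j : ℤ} (h1 : 1 ≤ n) (h2 : n ≤ j) (h3 : j ≤ l) (hn : (l : ℝ)⁻¹ ≤ ‖F n‖)
    (hj : (l : ℝ)⁻¹ ≤ ‖G j‖)
    (h0 : ∀ i : ℕ, HasSum (fun m => ((Wp w i m * d m : ℝ) : ℂ) * F m * G (m + i)) 0) : False := by
  have hε : 0 ≤ ε := (hw l).trans hwl
  have h4 := hlow w F G hw1 hws (norm_le_of_hasSum hF l.cast_nonneg ha)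
    (norm_le_of_hasSum hG l.cast_nonneg hb) n j h1 h2 h3 hn hj
  have h5 : ∑ i ∈ Finset.range l, ‖pair l w F G i‖ ≤ ∑ _i ∈ Finset.range l, ε * (l : ℝ) ^ 2 := by
    refine Finset.sum_le_sum fun i _ => (pair_le hw hw1 hwl hd hd' hF hG (h0 i)).trans ?_
    nlinarith
  rw [Finset.sum_const, Finset.card_range, nsmul_eq_mul] at h5
  nlinarith

end Vale.Agent.P131
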