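import Vale.Agent.P131.Op

/-! A nonscalar operator with transitive commutant. -/

open Set Filter Topology MeasureTheory
open scoped ComplexConjugate ENNReal unitInterval

namespace Vale.Agent.P131

theorem hasSum_sub {E : Type} [NormedAddCommGroup E] {f : ℤ → E} {a : E} (h : HasSum f a) (q : ℤ) :
    HasSum (fun m => f (m - q)) a :=
  (Equiv.subRight q).hasSum_iff.mpr h

theorem hasSum_add {E : Type} [NormedAddCommGroup E] {f : ℤ → E} {a : E} (h : HasSum f a) (q : ℤ) :
    HasSum (fun m => f (m + q)) a :=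
  (Equiv.addRight q).hasSum_iff.mpr h

section general

variable {X : Type} [MeasurableSpace X] {ν : Measure X} [IsProbabilityMeasure ν]

theorem transitive {lev : X → ℕ} (hlev : Measurable lev)
    (hτ : ∀ l : ℕ, 1 ≤ l → l * ν.real {x | l ≤ lev x} = 1 / 2) {s : ℕ → ℝ} (hs0 : ∀ k, 0 < s k)
    (hs1 : ∀ k, s k ≤ 1) (hsa : Antitone s)
    (hs : ∀ k, ∃ δ, Low (k + 1) (s k) δ ∧ ((k + 1 : ℕ) : ℝ) ^ 3 * (s (k + 1) / s k) < δ)
    {T : HH ν →L[ℂ] HH ν} (hT : IsW ν T (fun z => s (lev (z.1 (z.2 - 1)))) id 1)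
    {M : Submodule ℂ (HH ν)}
    (hM : ∀ A : HH ν →L[ℂ] HH ν, A * T = T * A → ∀ x ∈ M, A x ∈ M) {f g : HH ν} (hf : f ∈ M)
    (hg : g ∈ Mᗮ) (hf0 : f ≠ 0) (hg0 : g ≠ 0) : False := by
  obtain ⟨a, L₁, E₁, hE₁, hE₁', h₁⟩ := good hf0
  obtain ⟨b, L₂, E₂, hE₂, hE₂', h₂⟩ := good hg0
  have hB : ∀ l : ℕ, MeasurableSet {x | l ≤ lev x} := fun l =>
    measurableSet_le measurable_const hlev
  obtain ⟨l, hl, n, j, hn, hnj, hj, hpos⟩ := prob ν hB hτ (measurable_rei (· - a) hE₁)
    (measurable_rei (· - b) hE₂)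
    (by rwa [(mp_rei ν (sub_left_injective (b := a))).measure_preimage hE₁.nullMeasurableSet])
    (by rwa [(mp_rei ν (sub_left_injective (b := b))).measure_preimage hE₂.nullMeasurableSet])
    (L₁ + L₂ + 1)
  obtain ⟨k, rfl⟩ : ∃ k, l = k + 1 := ⟨l - 1, by omega⟩
  obtain ⟨δ, hlow, hδ⟩ := hs k
  set C := Mk {x | k + 1 ≤ lev x} (k + 1 : ℕ) 0 (k + 1 : ℕ) with hC
  have hv : Measurable fun x => s (lev x) := (measurable_from_nat (f := s)).comp hlev
  have hCa : ∀ y ∈ C, s (lev (y (k + 1 : ℕ))) ≤ s (k + 1) := fun y hy => hsa hy.1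
  have hCb : ∀ y ∈ C, ∀ m : ℤ, 0 ≤ m → m < (k + 1 : ℕ) → s k ≤ s (lev (y m)) :=
    fun y hy m h1 h2 => hsa (Nat.lt_succ_iff.mp (not_le.mp (hy.2 m h1 h2)))
  have hd : ∀ y ∈ C, ∀ m : ℤ, ¬(1 ≤ m ∧ m ≤ (k + 1 : ℕ)) →
      |dg (k + 1) (fun m => s (lev (y m))) m| ≤ s (k + 1) / s k := by
    intro y hy m hm
    rw [dg, if_neg hm, abs_of_pos (div_pos (hs0 _) (hs0 _))]
    exact div_le_div₀ (hs0 _).le (hCa y hy) (hs0 _) (hCb y hy 0 le_rfl (by omega))
  have hb : ∀ i z, |rho (fun x => s (lev x)) C (k + 1) i z| ≤ 1 := by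
    intro i z
    rw [rho]
    split_ifs with hz
    · rw [abs_mul, abs_of_nonneg (Wp_nonneg (fun _ => (hs0 _).le) _ _)]
      refine mul_le_one₀ (Wp_le_one (fun _ => (hs0 _).le) (fun _ => hs1 _) _ _) (abs_nonneg _) ?_
      by_cases hm : 1 ≤ z.2 - i ∧ z.2 - i ≤ (k + 1 : ℕ)
      · rw [dg, if_pos hm, abs_one]
      · exact (hd _ hz _ hm).trans ((div_le_one (hs0 _)).mpr (hsa (Nat.le_succ k)))
    · simp
  have k1 := ae_all_iff.mpr fun i : ℕ => orth (v := fun x => s (lev x)) hT hM hf hg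
    (measurable_rho hv (measurableSet_Mk (hB (k + 1)) _ _ _) (k + 1) i) (hb i)
    (sw_inj (k + 1 : ℕ) (n - a))
    (rho_cocycle (fun _ => hs0 _) C (Nat.succ_pos k) i (n - a)) (j - b)
  have k2 := (mp_rei ν (sw_inj (k + 1 : ℕ) (n - a))).quasiMeasurePreserving.ae (NF_ae f)
  have k3 := (mp_rei ν (add_left_injective (j - b))).quasiMeasurePreserving.ae (NF_ae g)
  obtain ⟨y, ⟨⟨hy, hy1⟩, hy2⟩, k4, k5, k6⟩ := Measure.exists_mem_of_measure_ne_zero_of_ae hpos
    (ae_restrict_of_ae (k1.and (k2.and k3)))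
  have e1 : rei (· - a) (rei (sw (k + 1 : ℕ) n) y) = rei (sw (k + 1 : ℕ) (n - a)) y := by
    funext m
    simp only [rei, sw, show m - a + n = m + (n - a) by ring]
  have e2 : rei (· - b) (rei (· + j) y) = rei (· + (j - b)) y := by
    funext m
    simp only [rei, show m - b + j = m + (j - b) by ring]
  rw [mem_preimage, mem_preimage, e1] at hy1
  rw [mem_preimage, mem_preimage, e2] at hy2
  obtain ⟨p1, p2⟩ := h₁ (k + 1) (by omega) _ hy1
  obtain ⟨p3, p4⟩ := h₂ (k + 1) (by omega) _ hy2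
  refine det hlow hδ (w := fun m => s (lev (y m))) (d := dg (k + 1) fun m => s (lev (y m)))
    (F := fun m => f (rei (sw (k + 1 : ℕ) (n - a)) y, m - (n - a)))
    (G := fun m => conj (g (rei (· + (j - b)) y, m - (j - b)))) (fun _ => (hs0 _).le)
    (fun _ => hs1 _) (fun m h1 h2 => hCb y hy m (by omega) h2)
    ((hCa y hy).trans (le_div_self (hs0 _).le (hs0 _) (hs1 _)))
    (fun m h1 h2 => if_pos ⟨h1, h2⟩) (hd y hy)
    (hasSum_sub k5 (n - a)) ?_ p2 p4 hn hnj hj (by simpa using p1)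
    (by simpa using p3) fun i => ?_
  · simpa only [Complex.norm_conj] using hasSum_sub k6 (j - b)
  · have hy' : y ∈ C := hy
    simpa only [rho, ← hC, if_pos hy', add_sub_cancel_right, add_sub_add_right_eq_sub] using
      hasSum_add (k4 i) i

theorem nonscalar {v : X → ℝ} (hv : ∀ x, 0 < v x) {T : HH ν →L[ℂ] HH ν}
    (hT : IsW ν T (fun z => v (z.1 (z.2 - 1))) id 1) (c : ℂ) : T ≠ c • 1 := by
  intro h
  have hm : MeasurableSet ((univ : Set (ℤ → X)) ×ˢ ({0} : Set ℤ)) :=
    MeasurableSet.univ.prod (measurableSet_singleton _)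
  have hfin : lam ν (univ ×ˢ {0}) ≠ ∞ := by simp [Measure.prod_prod]
  set f : HH ν := indicatorConstLp 2 hm hfin 1 with hf
  have h1 : f =ᵐ[lam ν] (univ ×ˢ {0} : Set ((ℤ → X) × ℤ)).indicator fun _ => 1 :=
    indicatorConstLp_coeFn
  have h2 : T f = c • f := by rw [h]; rfl
  have hpos : lam ν (univ ×ˢ {1}) ≠ 0 := by simp [Measure.prod_prod]
  obtain ⟨z, hz, k1, k2, k3, k4⟩ := Measure.exists_mem_of_measure_ne_zero_of_ae hpos
    (ae_restrict_of_ae (h1.and ((hT f).and ((Lp.coeFn_smul c f).and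
      ((mp_ph ν Function.injective_id 1).quasiMeasurePreserving.ae h1)))))
  have hz2 : z.2 = 1 := hz.2
  rw [h2, k3, Pi.smul_apply, k1] at k2
  simp only [k4] at k2
  simp [indicator, ph, hz2] at k2
  exact (hv _).ne (by exact_mod_cast k2)

end general

/-- The level function on the unit interval. -/
noncomputable def lev (u : I) : ℕ := ⌊1 / (2 * (u : ℝ))⌋₊

theorem measurable_lev : Measurable lev :=
  Nat.measurable_floor.comp (measurable_const.div (measurable_subtype_coe.const_mul 2))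

theorem real_lev (l : ℕ) (hl : 1 ≤ l) : l * (volume : Measure I).real {x | l ≤ lev x} = 1 / 2 := by
  have h0 : (1 : ℝ) ≤ l := by exact_mod_cast hl
  have h1 : 1 / (2 * (l : ℝ)) ∈ I :=
    ⟨by positivity, by rw [div_le_one (by positivity)]; linarith⟩
  have h2 : {x : I | l ≤ lev x} = Ioc 0 ⟨_, h1⟩ := by
    ext x
    rw [mem_ofPred_eq, lev, Nat.le_floor_iff' (by omega), mem_Ioc, ← Subtype.coe_lt_coe,
      ← Subtype.coe_le_coe]
    rcases x.2.1.eq_or_lt with h | h
    · simp only [← h, mul_zero, div_zero, Icc.coe_zero, lt_self_iff_false, false_and, iff_false,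
        not_le]
      linarith
    · simp only [Icc.coe_zero, h, true_and]
      rw [le_div_iff₀ (by positivity), le_div_iff₀ (by positivity)]
      constructor <;> intro h3 <;> linarith
  rw [h2, measureReal_def, unitInterval.volume_Ioc, ENNReal.toReal_ofReal (by simp)]
  simp only [Icc.coe_zero, sub_zero]
  field_simp

theorem exists_model : ∃ T : HH (volume : Measure I) →L[ℂ] HH (volume : Measure I),
    (∀ c : ℂ, T ≠ c • 1) ∧ ∀ M : Submodule ℂ (HH (volume : Measure I)),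
      IsClosed (M : Set (HH (volume : Measure I))) → (∀ A, A * T = T * A → ∀ x ∈ M, A x ∈ M) → M = ⊥ ∨ M = ⊤ := by
  obtain ⟨s, hs0, hs1, hsa, hs⟩ := exists_weights
  obtain ⟨T, hT⟩ := exists_op (volume : Measure I) (ρ := fun z => s (lev (z.1 (z.2 - 1))))
    (measurable_from_prod_countable_left fun m => ((measurable_from_nat (f := s)).comp
      measurable_lev).comp (measurable_pi_apply (m - 1)))
    (fun z => by rw [abs_of_pos (hs0 _)]; exact hs1 _) Function.injective_id 1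
  refine ⟨T, nonscalar (v := fun x => s (lev x)) (fun _ => hs0 _) hT, fun M hMc hM => ?_⟩
  by_contra hcon
  rw [not_or] at hcon
  have := hMc.completeSpace_coe
  obtain ⟨f, hf, hf0⟩ := Submodule.exists_mem_ne_zero_of_ne_bot hcon.1
  obtain ⟨g, hg, hg0⟩ := Submodule.exists_mem_ne_zero_of_ne_bot
    (mt Submodule.orthogonal_eq_bot_iff.mp hcon.2)
  exact transitive measurable_lev real_lev hs0 hs1 hsa hs hT hM hf hg hf0 hg0

theorem not_finite {H : Type*} [NormedAddCommGroup H] [NormedSpace ℂ H] {T : H →L[ℂ] H}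
    (h1 : ∀ c : ℂ, T ≠ c • 1) (h2 : ∀ M : Submodule ℂ H, IsClosed (M : Set H) →
      (∀ A : H →L[ℂ] H, A * T = T * A → ∀ x ∈ M, A x ∈ M) → M = ⊥ ∨ M = ⊤) :
    ¬FiniteDimensional ℂ H := by
  intro hfin
  have : Nontrivial H := by
    by_contra h
    rw [not_nontrivial_iff_subsingleton] at h
    exact h1 0 (ContinuousLinearMap.ext fun x => Subsingleton.elim _ _)
  obtain ⟨c, hc⟩ := Module.End.exists_eigenvalue (T : Module.End ℂ H)
  rcases h2 (Module.End.eigenspace (T : Module.End ℂ H) c) (Submodule.closed_of_finiteDimensional _)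
    (fun A hA x hx => by
      rw [Module.End.mem_eigenspace_iff] at hx ⊢
      have h3 : T x = c • x := hx
      have h4 : A (T x) = T (A x) := congrArg (fun B : H →L[ℂ] H => B x) hA
      change T (A x) = c • A x
      rw [← h4, h3, map_smul]) with h | h
  · exact hc h
  · refine h1 c (ContinuousLinearMap.ext fun x => ?_)
    exact Module.End.mem_eigenspace_iff.mp (h ▸ Submodule.mem_top : x ∈ _)

theorem exists_basis (H : Type*) [NormedAddCommGroup H] [InnerProductSpace ℂ H] [CompleteSpace H]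
    [TopologicalSpace.SeparableSpace H] (h : ¬FiniteDimensional ℂ H) :
    Nonempty (HilbertBasis ℕ ℂ H) := by
  obtain ⟨w, b, -⟩ := exists_hilbertBasis ℂ H
  have hc : Countable w := by
    refine Pairwise.countable_of_isOpen_disjoint (s := fun i => Metric.ball (b i) (1 / 2))
      (fun i j hij => Metric.ball_disjoint_ball ?_) (fun _ => Metric.isOpen_ball)
      fun _ => Metric.nonempty_ball.mpr (by norm_num)
    have h1 := norm_sub_sq (𝕜 := ℂ) (b i) (b j)
    rw [b.orthonormal.inner_eq_zero hij, b.orthonormal.norm_eq_one, b.orthonormal.norm_eq_one,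
      ← dist_eq_norm] at h1
    simp only [map_zero] at h1
    nlinarith [dist_nonneg (x := b i) (y := b j)]
  have hi : Infinite w := by
    by_contra h1
    rw [not_infinite_iff_finite] at h1
    have := Fintype.ofFinite w
    exact h (Module.Finite.of_basis b.toOrthonormalBasis.toBasis)
  obtain ⟨d⟩ := nonempty_denumerable w
  let e : ℕ ≃ w := (Denumerable.eqv w).symm
  refine ⟨HilbertBasis.mk (b.orthonormal.comp e e.injective) ?_⟩
  rw [range_comp, e.range_eq_univ, image_univ, b.dense_span]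

theorem main (H : Type*) [NormedAddCommGroup H] [InnerProductSpace ℂ H] [CompleteSpace H]
    [TopologicalSpace.SeparableSpace H] (h : ¬FiniteDimensional ℂ H) :
    ∃ T : H →L[ℂ] H, (∀ c : ℂ, T ≠ c • 1) ∧ ∀ M : Submodule ℂ H, IsClosed (M : Set H) →
      (∀ A : H →L[ℂ] H, A * T = T * A → ∀ x ∈ M, A x ∈ M) → M = ⊥ ∨ M = ⊤ := by
  obtain ⟨T, h1, h2⟩ := exists_model
  have : Fact ((2 : ℝ≥0∞) ≠ ∞) := ⟨by norm_num⟩
  have : IsSeparable (lam (volume : Measure I)) := isSeparable_of_sigmaFinite _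
  obtain ⟨b⟩ := exists_basis H h
  obtain ⟨b'⟩ := exists_basis _ (not_finite h1 h2)
  let Φ := (b'.repr.trans b.repr.symm).toContinuousLinearEquiv
  refine ⟨(Φ : _ →L[ℂ] H) ∘L T ∘L (Φ.symm : H →L[ℂ] _), fun c hc => h1 c ?_, fun M hMc hM => ?_⟩
  · ext1 x
    have := congrArg (fun B : H →L[ℂ] H => Φ.symm (B (Φ x))) hc
    simpa using this
  · rcases h2 (M.comap Φ.toLinearEquiv.toLinearMap) (hMc.preimage Φ.continuous)
      (fun A hA x hx => by
        have := hM ((Φ : _ →L[ℂ] H) ∘L A ∘L (Φ.symm : H →L[ℂ] _)) (by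
          ext1 y
          have h3 : A (T (Φ.symm y)) = T (A (Φ.symm y)) :=
            congrArg (fun B => B (Φ.symm y)) hA
          simp [h3]) (Φ x) hx
        simpa using this) with h3 | h3
    · left
      rw [Submodule.eq_bot_iff] at h3 ⊢
      intro x hx
      have := h3 (Φ.symm x) (by simpa using hx)
      simpa using this
    · right
      rw [Submodule.eq_top_iff'] at h3 ⊢
      intro x
      simpa using h3 (Φ.symm x)

end Vale.Agent.P131
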