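import Mathlib

/-! Probabilistic part: a dominating cut with prescribed patterns before it. -/

open Set Filter Topology MeasureTheory ProbabilityTheory
open scoped symmDiff

namespace Vale.Agent.P131

variable {X : Type} [MeasurableSpace X]

/-- The product measure. -/
noncomputable abbrev PP (ν : Measure X) [IsProbabilityMeasure ν] : Measure (ℤ → X) :=
  Measure.infinitePi fun _ => ν

/-- Reindexing of configurations. -/
def rei (e : ℤ → ℤ) (y : ℤ → X) : ℤ → X := fun m => y (e m)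

theorem measurable_rei (e : ℤ → ℤ) : Measurable (rei (X := X) e) :=
  measurable_pi_lambda _ fun _ => measurable_pi_apply _

variable (ν : Measure X) [IsProbabilityMeasure ν]

theorem mp_rei {e : ℤ → ℤ} (he : Function.Injective e) :
    MeasurePreserving (rei e) (PP ν) (PP ν) :=
  ⟨measurable_rei e, Measure.map_infinitePi_infinitePi_of_inj he⟩

/-- Events depending on the coordinates in `S`. -/
abbrev Cyl (S : Set ℤ) (A : Set (ℤ → X)) : Prop :=
  MeasurableSet[cylinderEvents (X := fun _ : ℤ => X) S] A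

theorem indep_cyl {S T : Set ℤ} (h : Disjoint S T) {A B : Set (ℤ → X)} (hA : Cyl S A)
    (hB : Cyl T B) : (PP ν).real (A ∩ B) = (PP ν).real A * (PP ν).real B := by
  have h1 := (iIndepFun_infinitePi (P := fun _ : ℤ => ν) (X := fun _ x => x)
    fun _ => measurable_id).iIndep
  have h2 := indep_iSup_of_disjoint (fun i => (measurable_pi_apply i).comap_le) h1 h
  rw [Indep_iff] at h2
  simp only [measureReal_def, h2 A B hA hB, ENNReal.toReal_mul]

theorem Cyl.mono {S T : Set ℤ} (h : S ⊆ T) {A : Set (ℤ → X)} (hA : Cyl S A) : Cyl T A :=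
  cylinderEvents_mono h A hA

theorem Cyl.rei {S : Set ℤ} {A : Set (ℤ → X)} (hA : Cyl S A) (e : ℤ → ℤ) :
    Cyl (e '' S) (rei e ⁻¹' A) := by
  have : @Measurable _ _ (cylinderEvents (e '' S)) (cylinderEvents S) (P131.rei (X := X) e) :=
    measurable_cylinderEvents_iff.mpr fun i hi =>
      measurable_cylinderEvent_apply (X := fun _ : ℤ => X) (mem_image_of_mem e hi)
  exact this hA

theorem cyl_eval {B : Set X} (hB : MeasurableSet B) (m : ℤ) : Cyl {m} {y | y m ∈ B} :=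
  measurable_cylinderEvent_apply (X := fun _ : ℤ => X) (mem_singleton m) hB

theorem real_eval {B : Set X} (hB : MeasurableSet B) (m : ℤ) :
    (PP ν).real {y | y m ∈ B} = ν.real B :=
  (measurePreserving_eval_infinitePi (fun _ : ℤ => ν) m).measureReal_preimage
    hB.nullMeasurableSet

theorem approx {E : Set (ℤ → X)} (hE : MeasurableSet E) {δ : ℝ} (hδ : 0 < δ) :
    ∃ (s : Finset ℤ) (E' : Set (ℤ → X)), Cyl s E' ∧ (PP ν).real (E' ∆ E) ≤ δ := by
  obtain ⟨t, ht, h⟩ := exists_measure_symmDiff_lt_of_generateFrom_isSetRing (μ := PP ν)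
    isSetRing_measurableCylinders ⟨{univ}, countable_singleton _,
      singleton_subset_iff.mpr (univ_mem_measurableCylinders _), by simp⟩
    generateFrom_measurableCylinders.symm hE (ENNReal.ofReal_pos.mpr hδ)
  obtain ⟨s, S, hS, rfl⟩ := (mem_measurableCylinders t).mp ht
  refine ⟨s, _, ?_, ENNReal.toReal_le_of_le_ofReal hδ.le h.le⟩
  have : @Measurable _ _ (cylinderEvents (s : Set ℤ)) _
      (s.restrict : (ℤ → X) → ∀ _ : s, X) := by
    rw [@measurable_pi_iff]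
    exact fun i => measurable_cylinderEvent_apply (X := fun _ : ℤ => X) i.2
  exact this hS

theorem pigeon {N : Finset ℤ} (hN : N.Nonempty) {D : ℤ → Set (ℤ → X)}
    (hD : ∀ n, MeasurableSet (D n)) (hd : (N : Set ℤ).PairwiseDisjoint D) {Z : Set (ℤ → X)}
    (hZ : MeasurableSet Z) : ∃ n ∈ N, N.card * (PP ν).real (D n ∩ Z) ≤ (PP ν).real Z := by
  refine Finset.exists_le_of_sum_le hN ?_
  rw [← Finset.mul_sum, Finset.sum_const, nsmul_eq_mul, ← measureReal_biUnion_finset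
    (hd.mono fun n => inter_subset_left) fun n _ => (hD n).inter hZ]
  refine mul_le_mul_of_nonneg_left (measureReal_mono ?_) N.card.cast_nonneg
  exact iUnion₂_subset fun n _ => inter_subset_right

/-- A mark at `a` and no mark on `[b, c)`. -/
def Mk (B : Set X) (a b c : ℤ) : Set (ℤ → X) := {y | y a ∈ B ∧ ∀ m, b ≤ m → m < c → y m ∉ B}

theorem measurableSet_Mk {B : Set X} (hB : MeasurableSet B) (a b c : ℤ) :
    MeasurableSet (Mk B a b c) := by
  have h : ∀ m : ℤ, Measurable fun y : ℤ → X => y m ∈ B := fun m =>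
    hB.mem.comp (measurable_pi_apply m)
  exact ((h a).and (Measurable.forall fun m => measurable_const.imp
    (measurable_const.imp (h m).not))).setOf

theorem main_term {B : Set X} (hB : MeasurableSet B) {l : ℕ} (hτ : l * ν.real B = 1 / 2)
    {S₁ S₂ : Finset ℤ} (hd : Disjoint (S₁ : Set ℤ) S₂) (h1 : (l : ℤ) ∉ S₁) (h2 : (l : ℤ) ∉ S₂)
    {C₁ C₂ : Set (ℤ → X)} (hC₁ : Cyl S₁ C₁) (hC₂ : Cyl S₂ C₂) :
    ν.real B * ((PP ν).real C₁ * (PP ν).real C₂) / 2 - (S₁.card + S₂.card) * ν.real B ^ 2 ≤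
      (PP ν).real (Mk B l 0 l ∩ C₁ ∩ C₂) := by
  classical
  set τ := ν.real B with hτdef
  have hτ0 : 0 ≤ τ := measureReal_nonneg
  have hC : Cyl (S₁ ∪ S₂) (C₁ ∩ C₂) :=
    (hC₁.mono subset_union_left).inter (hC₂.mono subset_union_right)
  set Y : Set (ℤ → X) := {y | y l ∈ B} ∩ (C₁ ∩ C₂) with hY
  have hYc : Cyl ({(l : ℤ)} ∪ (S₁ ∪ S₂)) Y :=
    ((cyl_eval hB l).mono subset_union_left).inter (hC.mono subset_union_right)
  have hYv : (PP ν).real Y = τ * ((PP ν).real C₁ * (PP ν).real C₂) := by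
    rw [hY, indep_cyl ν (by simp [h1, h2]) (cyl_eval hB l) hC, real_eval ν hB,
      indep_cyl ν hd hC₁ hC₂]
  have hsub : Y ⊆ (Mk B l 0 l ∩ C₁ ∩ C₂) ∪
      ⋃ m ∈ Finset.Ico (0 : ℤ) l, ({y | y m ∈ B} ∩ Y) := by
    intro y hy
    by_cases h : ∀ m : ℤ, 0 ≤ m → m < l → y m ∉ B
    · exact Or.inl ⟨⟨⟨hy.1, h⟩, hy.2.1⟩, hy.2.2⟩
    · push Not at h
      obtain ⟨m, hm1, hm2, hm⟩ := h
      exact Or.inr (mem_iUnion₂.mpr ⟨m, Finset.mem_Ico.mpr ⟨hm1, hm2⟩, hm, hy⟩)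
  have hterm : ∀ m ∈ Finset.Ico (0 : ℤ) l, (PP ν).real ({y | y m ∈ B} ∩ Y) ≤
      τ * (PP ν).real Y + if m ∈ S₁ ∪ S₂ then τ ^ 2 else 0 := by
    intro m hm
    have hml : m ≠ l := (Finset.mem_Ico.mp hm).2.ne
    split_ifs with h
    · have h3 : (PP ν).real ({y | y m ∈ B} ∩ Y) ≤ (PP ν).real ({y | y m ∈ B} ∩ {y | y l ∈ B}) :=
        measureReal_mono (inter_subset_inter_right _ inter_subset_left)
      rw [indep_cyl ν (by simpa using hml) (cyl_eval hB m) (cyl_eval hB l), real_eval ν hB,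
        real_eval ν hB] at h3
      have := mul_nonneg hτ0 (measureReal_nonneg (μ := PP ν) (s := Y))
      nlinarith
    · rw [Finset.mem_union, not_or] at h
      rw [indep_cyl ν (by simp [hml, h.1, h.2]) (cyl_eval hB m) hYc, real_eval ν hB, add_zero]
  have h3 := (measureReal_mono (μ := PP ν) hsub).trans ((measureReal_union_le _ _).trans
    (add_le_add le_rfl ((measureReal_biUnion_finset_le _ _).trans (Finset.sum_le_sum hterm))))
  rw [Finset.sum_add_distrib, Finset.sum_const, Int.card_Ico, sub_zero, Int.toNat_natCast,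
    nsmul_eq_mul, ← mul_assoc, hτ, ← Finset.sum_filter, Finset.sum_const, nsmul_eq_mul] at h3
  have h4 : (((Finset.Ico (0 : ℤ) l).filter fun m => m ∈ S₁ ∪ S₂).card : ℝ) ≤
      S₁.card + S₂.card := by
    have h5 : ((Finset.Ico (0 : ℤ) l).filter fun m => m ∈ S₁ ∪ S₂) ⊆ S₁ ∪ S₂ :=
      fun m hm => (Finset.mem_filter.mp hm).2
    exact_mod_cast (Finset.card_le_card h5).trans (Finset.card_union_le _ _)
  have h5 := mul_le_mul_of_nonneg_right h4 (sq_nonneg τ)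
  rw [hYv] at h3
  linarith

/-- Shift by `n` followed by the transposition of `0` and `l`. -/
def sw (l n : ℤ) (m : ℤ) : ℤ := Equiv.swap 0 l (m + n)

theorem sw_inj (l n : ℤ) : Function.Injective (sw l n) :=
  (Equiv.swap 0 l).injective.comp (add_left_injective n)

theorem err1 {B : Set X} (hB : MeasurableSet B) (l : ℕ) {N : Finset ℤ} (hN : N.Nonempty)
    (hN' : ∀ n ∈ N, 1 ≤ n ∧ n ≤ l) {Z : Set (ℤ → X)} (hZ : MeasurableSet Z) :
    ∃ n ∈ N, N.card * (PP ν).real (Mk B l 0 l ∩ rei (sw l n) ⁻¹' Z) ≤ (PP ν).real Z := by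
  obtain ⟨n, hn, h⟩ := pigeon ν hN (D := fun n => Mk B (-n) (1 - n) (l + 1 - n))
    (fun n => measurableSet_Mk hB _ _ _) (by
      intro a ha b hb hab
      have h1 := hN' a ha
      have h2 := hN' b hb
      refine disjoint_left.mpr fun y hya hyb => ?_
      rcases lt_or_gt_of_ne hab with h | h
      · exact hyb.2 (-a) (by omega) (by omega) hya.1
      · exact hya.2 (-b) (by omega) (by omega) hyb.1) hZ
  refine ⟨n, hn, le_trans (mul_le_mul_of_nonneg_left ?_ N.card.cast_nonneg) h⟩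
  rw [← (mp_rei ν (sw_inj l n)).measureReal_preimage
    ((measurableSet_Mk hB _ _ _).inter hZ).nullMeasurableSet]
  refine measureReal_mono fun y hy => ⟨⟨?_, fun m h1 h2 => ?_⟩, hy.2⟩
  · simpa [rei, sw] using hy.1.1
  · have h3 := hN' n hn
    simp only [rei, sw]
    by_cases h4 : m + n = l
    · rw [h4, Equiv.swap_apply_right]
      exact hy.1.2 0 le_rfl (by omega)
    · rw [Equiv.swap_apply_of_ne_of_ne (by omega) h4]
      exact hy.1.2 _ (by omega) (by omega)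

theorem err2 {B : Set X} (hB : MeasurableSet B) (l : ℕ) {N : Finset ℤ} (hN : N.Nonempty)
    (hN' : ∀ n ∈ N, 1 ≤ n ∧ n ≤ l) {Z : Set (ℤ → X)} (hZ : MeasurableSet Z) :
    ∃ n ∈ N, N.card * (PP ν).real (Mk B l 0 l ∩ rei (· + n) ⁻¹' Z) ≤ (PP ν).real Z := by
  obtain ⟨n, hn, h⟩ := pigeon ν hN (D := fun n => Mk B (l - n) (-n) (l - n))
    (fun n => measurableSet_Mk hB _ _ _) (by
      intro a ha b hb hab
      have h1 := hN' a ha
      have h2 := hN' b hb
      refine disjoint_left.mpr fun y hya hyb => ?_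
      rcases lt_or_gt_of_ne hab with h | h
      · exact hya.2 (l - b) (by omega) (by omega) hyb.1
      · exact hyb.2 (l - a) (by omega) (by omega) hya.1) hZ
  refine ⟨n, hn, le_trans (mul_le_mul_of_nonneg_left ?_ N.card.cast_nonneg) h⟩
  rw [← (mp_rei ν (add_left_injective n)).measureReal_preimage
    ((measurableSet_Mk hB _ _ _).inter hZ).nullMeasurableSet]
  refine measureReal_mono fun y hy => ⟨⟨?_, fun m h1 h2 => ?_⟩, hy.2⟩
  · simpa [rei] using hy.1.1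
  · exact hy.1.2 (m + n) (by omega) (by omega)

theorem numeric {p₁ p₂ a₁ a₂ τ K l q e₁ e₂ δ : ℝ} (hp₁ : 0 < p₁) (hp₂ : 0 < p₂) (h₁ : p₁ ≤ 1)
    (h₂ : p₂ ≤ 1) (hδ : δ = p₁ * p₂ / 200) (ha₁ : p₁ - δ ≤ a₁) (ha₂ : p₂ - δ ≤ a₂)
    (hτ : l * τ = 1 / 2) (hq : 0 < q) (hl : l ≤ 3 * q) (hql : q ≤ l) (hK0 : 0 ≤ K)
    (hK : 10 * K ≤ p₁ * p₂ * q) (he₁ : q * e₁ ≤ δ) (he₂ : q * e₂ ≤ δ) :
    e₁ + e₂ < τ * (a₁ * a₂) / 2 - K * τ ^ 2 := by
  have hp : 0 < p₁ * p₂ := mul_pos hp₁ hp₂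
  have hl0 : 0 < l := hq.trans_le hql
  have hτ0 : 0 < τ := by
    by_contra h
    nlinarith [mul_nonneg hl0.le (neg_nonneg.mpr (not_lt.mp h))]
  have b₁ : p₁ / 2 ≤ a₁ := by nlinarith
  have b₂ : p₂ / 2 ≤ a₂ := by nlinarith
  have b₃ : p₁ * p₂ / 4 ≤ a₁ * a₂ := by
    nlinarith [mul_le_mul b₁ b₂ (by positivity) (le_trans (by positivity) b₁)]
  have b₄ : 1 ≤ 6 * (q * τ) := by nlinarith
  have b₅ : q * τ ≤ 1 / 2 := by nlinarith
  have b₆ : e₁ + e₂ ≤ 12 * δ * τ := by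
    refine le_of_mul_le_mul_left ?_ hq
    have : 0 ≤ δ := by rw [hδ]; positivity
    nlinarith
  have b₇ : K * τ ≤ p₁ * p₂ / 20 := by
    have h1 := mul_le_mul_of_nonneg_right hK hτ0.le
    nlinarith
  have b₈ := mul_le_mul_of_nonneg_right b₇ hτ0.le
  have b₉ := mul_le_mul_of_nonneg_left b₃ hτ0.le
  have b₁₀ := mul_pos hτ0 hp
  rw [hδ] at b₆
  nlinarith

theorem prob {B : ℕ → Set X} (hB : ∀ l, MeasurableSet (B l))
    (hτ : ∀ l : ℕ, 1 ≤ l → l * ν.real (B l) = 1 / 2) {E₁ E₂ : Set (ℤ → X)}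
    (hE₁ : MeasurableSet E₁) (hE₂ : MeasurableSet E₂) (h₁ : PP ν E₁ ≠ 0) (h₂ : PP ν E₂ ≠ 0)
    (L : ℕ) : ∃ l : ℕ, L ≤ l ∧ ∃ n j : ℤ, 1 ≤ n ∧ n ≤ j ∧ j ≤ l ∧
      PP ν (Mk (B l) l 0 l ∩ rei (sw l n) ⁻¹' E₁ ∩ rei (· + j) ⁻¹' E₂) ≠ 0 := by
  classical
  have hp₁ : 0 < (PP ν).real E₁ := ENNReal.toReal_pos h₁ (measure_ne_top _ _)
  have hp₂ : 0 < (PP ν).real E₂ := ENNReal.toReal_pos h₂ (measure_ne_top _ _)
  set δ := (PP ν).real E₁ * (PP ν).real E₂ / 200 with hδ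
  obtain ⟨s₁, F₁, hF₁, hd₁⟩ := approx ν hE₁ (δ := δ) (by positivity)
  obtain ⟨s₂, F₂, hF₂, hd₂⟩ := approx ν hE₂ (δ := δ) (by positivity)
  have hF₁m : MeasurableSet F₁ := cylinderEvents_le_pi _ hF₁
  have hF₂m : MeasurableSet F₂ := cylinderEvents_le_pi _ hF₂
  obtain ⟨r, hr⟩ : ∃ r : ℕ, ∀ i ∈ s₁ ∪ s₂, i.natAbs ≤ r :=
    ⟨(s₁ ∪ s₂).sup Int.natAbs, fun i hi => Finset.le_sup hi⟩
  obtain ⟨q₀, hq₀⟩ := exists_nat_ge
    (10 * ((s₁.card : ℝ) + s₂.card) / ((PP ν).real E₁ * (PP ν).real E₂))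
  set q := q₀ + L + 4 * r + 2 with hq
  set l := 4 * r + 2 * q + 2 with hl
  obtain ⟨n, hn, en⟩ := err1 ν (hB l) l (N := Finset.Ioc (r : ℤ) (r + q))
    (Finset.nonempty_Ioc.mpr (by omega)) (fun n hn => by rw [Finset.mem_Ioc] at hn; omega)
    (hF₁m.symmDiff hE₁)
  obtain ⟨j, hj, ej⟩ := err2 ν (hB l) l (N := Finset.Ioc (3 * r + q + 1 : ℤ) (3 * r + q + 1 + q))
    (Finset.nonempty_Ioc.mpr (by omega)) (fun n hn => by rw [Finset.mem_Ioc] at hn; omega)
    (hF₂m.symmDiff hE₂)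
  rw [Int.card_Ioc, add_sub_cancel_left, Int.toNat_natCast] at en ej
  rw [Finset.mem_Ioc] at hn hj
  refine ⟨l, by omega, n, j, by omega, by omega, by omega, fun h0 => ?_⟩
  have hs₁ : ∀ i ∈ s₁.image (sw l n), 1 ≤ i ∧ i ≤ 2 * r + q := by
    intro i hi
    obtain ⟨a, ha, rfl⟩ := Finset.mem_image.mp hi
    have := hr a (Finset.mem_union_left _ ha)
    rw [sw, Equiv.swap_apply_of_ne_of_ne (by omega) (by omega)]
    omega
  have hs₂ : ∀ i ∈ s₂.image (· + j), 2 * r + q < i ∧ i < l := by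
    intro i hi
    obtain ⟨a, ha, rfl⟩ := Finset.mem_image.mp hi
    have := hr a (Finset.mem_union_right _ ha)
    omega
  have hm := main_term ν (hB l) (hτ l (by omega)) (S₁ := s₁.image (sw l n))
    (S₂ := s₂.image (· + j)) (C₁ := rei (sw l n) ⁻¹' F₁) (C₂ := rei (· + j) ⁻¹' F₂)
    (disjoint_left.mpr fun i h1 h2 => by
      have := hs₁ i h1
      have := hs₂ i h2
      omega)
    (fun h => by have := hs₁ _ h; omega) (fun h => by have := hs₂ _ h; omega)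
    (by rw [Finset.coe_image]; exact hF₁.rei _) (by rw [Finset.coe_image]; exact hF₂.rei _)
  rw [(mp_rei ν (sw_inj l n)).measureReal_preimage hF₁m.nullMeasurableSet,
    (mp_rei ν (add_left_injective j)).measureReal_preimage hF₂m.nullMeasurableSet] at hm
  have hsub : Mk (B l) l 0 l ∩ rei (sw l n) ⁻¹' F₁ ∩ rei (· + j) ⁻¹' F₂ ⊆
      (Mk (B l) l 0 l ∩ rei (sw l n) ⁻¹' E₁ ∩ rei (· + j) ⁻¹' E₂) ∪
        (Mk (B l) l 0 l ∩ rei (sw l n) ⁻¹' (F₁ ∆ E₁) ∪
          Mk (B l) l 0 l ∩ rei (· + j) ⁻¹' (F₂ ∆ E₂)) := by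
    rintro y ⟨⟨hy, hy1⟩, hy2⟩
    by_cases k1 : rei (sw l n) y ∈ E₁
    · by_cases k2 : rei (· + j) y ∈ E₂
      · exact Or.inl ⟨⟨hy, k1⟩, k2⟩
      · exact Or.inr (Or.inr ⟨hy, Or.inl ⟨hy2, k2⟩⟩)
    · exact Or.inr (Or.inl ⟨hy, Or.inl ⟨hy1, k1⟩⟩)
  have h3 := (measureReal_mono (μ := PP ν) hsub).trans ((measureReal_union_le _ _).trans
    (add_le_add le_rfl (measureReal_union_le _ _)))
  rw [measureReal_def _ (_ ∩ _ ∩ rei (· + j) ⁻¹' E₂), h0, ENNReal.toReal_zero, zero_add] at h3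
  have a₁ := (abs_le.mp ((abs_measureReal_sub_le_measureReal_symmDiff hF₁m.nullMeasurableSet
    hE₁.nullMeasurableSet).trans hd₁)).1
  have a₂ := (abs_le.mp ((abs_measureReal_sub_le_measureReal_symmDiff hF₂m.nullMeasurableSet
    hE₂.nullMeasurableSet).trans hd₂)).1
  have hK : ((s₁.image (sw l n)).card : ℝ) + (s₂.image (· + j)).card ≤ s₁.card + s₂.card := by
    exact_mod_cast add_le_add Finset.card_image_le Finset.card_image_le
  have hq1 : (q₀ : ℝ) ≤ q := by exact_mod_cast (show q₀ ≤ q by omega)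
  rw [div_le_iff₀ (by positivity)] at hq₀
  have key := numeric (K := ((s₁.image (sw l n)).card : ℝ) + (s₂.image (· + j)).card) (q := q)
    hp₁ hp₂ measureReal_le_one measureReal_le_one hδ (a₁ := (PP ν).real F₁)
    (a₂ := (PP ν).real F₂) (by linarith) (by linarith) (hτ l (by omega))
    (by exact_mod_cast (show 0 < q by omega)) (by exact_mod_cast (show l ≤ 3 * q by omega))
    (by exact_mod_cast (show q ≤ l by omega)) (by positivity)
    (by nlinarith [mul_le_mul_of_nonneg_left hq1 (mul_pos hp₁ hp₂).le])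
    (en.trans hd₁) (ej.trans hd₂)
  linarith

end Vale.Agent.P131
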