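import Vale.Agent.P131.Det
import Vale.Agent.P131.Prob

/-! Weighted composition operators on the skew product space. -/

open Set Filter Topology MeasureTheory
open scoped ComplexConjugate ENNReal

namespace Vale.Agent.P131

variable {X : Type} [MeasurableSpace X] (ν : Measure X) [IsProbabilityMeasure ν]

/-- The measure on configurations times positions. -/
noncomputable abbrev lam : Measure ((ℤ → X) × ℤ) := (PP ν).prod Measure.count

/-- The Hilbert space. -/
abbrev HH : Type := Lp ℂ 2 (lam ν)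

/-- Reindex the configuration and translate the position. -/
def ph (e : ℤ → ℤ) (q : ℤ) (z : (ℤ → X) × ℤ) : (ℤ → X) × ℤ := (rei e z.1, z.2 - q)

theorem mp_ph {e : ℤ → ℤ} (he : Function.Injective e) (q : ℤ) :
    MeasurePreserving (ph e q) (lam ν) (lam ν) :=
  (mp_rei ν he).prod (measurePreserving_sub_right Measure.count q)

/-- `A` is the weighted composition operator with the given data. -/
def IsW (A : HH ν →L[ℂ] HH ν) (ρ : (ℤ → X) × ℤ → ℝ) (e : ℤ → ℤ) (q : ℤ) : Prop :=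
  ∀ f : HH ν, A f =ᵐ[lam ν] fun z => (ρ z : ℂ) * f (ph e q z)

theorem exists_op {ρ : (ℤ → X) × ℤ → ℝ} (hρ : Measurable ρ) (hb : ∀ z, |ρ z| ≤ 1) {e : ℤ → ℤ}
    (he : Function.Injective e) (q : ℤ) : ∃ A, IsW ν A ρ e q := by
  have hm : MemLp (fun z => (ρ z : ℂ)) ∞ (lam ν) :=
    memLp_top_of_bound (Complex.measurable_ofReal.comp hρ).aestronglyMeasurable 1
      (Eventually.of_forall fun z => by simpa using hb z)
  refine ⟨((ContinuousLinearMap.mul ℂ ℂ).holderL (lam ν) ∞ 2 2 hm.toLp).comp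
    (Lp.compMeasurePreservingₗᵢ ℂ (ph e q) (mp_ph ν he q)).toContinuousLinearMap, fun f => ?_⟩
  have h1 := (ContinuousLinearMap.mul ℂ ℂ).coeFn_holder (r := 2) hm.toLp
    (Lp.compMeasurePreserving (ph e q) (mp_ph ν he q) f)
  filter_upwards [h1, hm.coeFn_toLp, Lp.coeFn_compMeasurePreserving f (mp_ph ν he q)]
    with z k1 k2 k3
  refine k1.trans ?_
  rw [k2, k3]
  rfl

variable {ν}

theorem IsW.commute {v : X → ℝ} {T A : HH ν →L[ℂ] HH ν}
    (hT : IsW ν T (fun z => v (z.1 (z.2 - 1))) id 1) {ρ : (ℤ → X) × ℤ → ℝ} {e : ℤ → ℤ} {q : ℤ}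
    (hA : IsW ν A ρ e q) (he : Function.Injective e)
    (h : ∀ y m, ρ (y, m) * v (y (e (m - q - 1))) = v (y (m - 1)) * ρ (y, m - 1)) :
    A * T = T * A := by
  ext1 f
  refine Lp.ext ?_
  filter_upwards [hA (T f), hT (A f), (mp_ph ν he q).quasiMeasurePreserving.ae (hT f),
    (mp_ph ν Function.injective_id 1).quasiMeasurePreserving.ae (hA f)] with z k1 k2 k3 k4
  refine k1.trans (Eq.trans ?_ k2.symm)
  rw [k3, k4, ← mul_assoc, ← mul_assoc, ← Complex.ofReal_mul, ← Complex.ofReal_mul]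
  have e1 : ph id 1 (ph e q z) = ph e q (ph id 1 z) := Prod.ext rfl (sub_right_comm _ _ _)
  rw [e1]
  exact congrArg (fun t : ℝ => (t : ℂ) * _) (h z.1 z.2)

/-- The shift unitaries. -/
noncomputable def UU (ν : Measure X) [IsProbabilityMeasure ν] (q : ℤ) : HH ν →ₗᵢ[ℂ] HH ν :=
  Lp.compMeasurePreservingₗᵢ ℂ (ph (· + q) q) (mp_ph ν (add_left_injective q) q)

theorem UU_ae (q : ℤ) (f : HH ν) : UU ν q f =ᵐ[lam ν] fun z => f (ph (· + q) q z) :=
  Lp.coeFn_compMeasurePreserving f _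

theorem UU_isW (q : ℤ) : IsW ν (UU ν q).toContinuousLinearMap (fun _ => 1) (· + q) q := by
  intro f
  filter_upwards [UU_ae q f] with z hz
  simpa using hz

theorem UU_inv (q : ℤ) (f : HH ν) : UU ν q (UU ν (-q) f) = f := by
  refine Lp.ext ?_
  filter_upwards [UU_ae q (UU ν (-q) f),
    (mp_ph ν (add_left_injective q) q).quasiMeasurePreserving.ae (UU_ae (-q) f)] with z k1 k2
  rw [k1, k2]
  congr 1
  refine Prod.ext (funext fun m => ?_) ?_
  · simp [ph, rei]
  · simp [ph]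

theorem hasSum_count {E : Type} [NormedAddCommGroup E] [NormedSpace ℝ E] [CompleteSpace E]
    {a : ℤ → E} (ha : Integrable a Measure.count) : HasSum a (∫ m, a m ∂Measure.count) := by
  rw [integral_countable ha]
  simpa using (integrable_count_iff.mp ha).of_norm.hasSum

theorem fiber {Θ : (ℤ → X) × ℤ → ℂ} (hΘ : Integrable Θ (lam ν))
    (h : ∀ E, MeasurableSet E → ∫ z, (E ×ˢ univ).indicator Θ z ∂lam ν = 0) :
    ∀ᵐ y ∂PP ν, HasSum (fun m => Θ (y, m)) 0 := by
  have h1 := hΘ.integral_prod_left.ae_eq_zero_of_forall_setIntegral_eq_zero fun E hE _ => by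
    have := h E hE
    rwa [integral_indicator (hE.prod MeasurableSet.univ),
      setIntegral_prod _ hΘ.integrableOn, Measure.restrict_univ] at this
  filter_upwards [h1, hΘ.prod_right_ae] with y k1 k2
  have := hasSum_count k2
  rwa [show ∫ m, Θ (y, m) ∂Measure.count = 0 from k1] at this

theorem orth {v : X → ℝ} {T : HH ν →L[ℂ] HH ν}
    (hT : IsW ν T (fun z => v (z.1 (z.2 - 1))) id 1) {M : Submodule ℂ (HH ν)}
    (hM : ∀ A : HH ν →L[ℂ] HH ν, A * T = T * A → ∀ x ∈ M, A x ∈ M) {f g : HH ν} (hf : f ∈ M)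
    (hg : g ∈ Mᗮ) {ρ : (ℤ → X) × ℤ → ℝ} (hρ : Measurable ρ) (hb : ∀ z, |ρ z| ≤ 1) {e : ℤ → ℤ}
    (he : Function.Injective e) {q : ℤ}
    (h : ∀ y m, ρ (y, m) * v (y (e (m - q - 1))) = v (y (m - 1)) * ρ (y, m - 1)) (q' : ℤ) :
    ∀ᵐ y ∂PP ν, HasSum (fun m => (ρ (y, m) : ℂ) * f (rei e y, m - q) *
      conj (g (rei (· + q') y, m - q'))) 0 := by
  have hg' : UU ν q' g ∈ Mᗮ := by
    rw [Submodule.mem_orthogonal] at hg ⊢
    intro u hu
    rw [← UU_inv q' u, LinearIsometry.inner_map_map]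
    exact hg _ (hM _ (hT.commute (UU_isW (-q')) (add_left_injective _) fun y m => by
      rw [one_mul, mul_one, show m - -q' - 1 + -q' = m - 1 by ring]) u hu)
  have key : ∀ {A ρ'}, IsW ν A ρ' e q → (fun z => inner ℂ (UU ν q' g z) (A f z)) =ᵐ[lam ν]
      fun z => (ρ' z : ℂ) * f (ph e q z) * conj (g (ph (· + q') q' z)) := by
    intro A ρ' hA
    filter_upwards [hA f, UU_ae q' g] with z k1 k2
    rw [k1, k2, RCLike.inner_apply]
  obtain ⟨A₀, hA₀⟩ := exists_op ν hρ hb he q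
  refine fiber (Θ := fun z => (ρ z : ℂ) * f (ph e q z) * conj (g (ph (· + q') q' z)))
    ((L2.integrable_inner (𝕜 := ℂ) _ _).congr (key hA₀)) fun E hE => ?_
  obtain ⟨A, hA⟩ := exists_op ν (ρ := (E ×ˢ univ).indicator ρ)
    (hρ.indicator (hE.prod MeasurableSet.univ))
    (fun z => by by_cases hz : z ∈ E ×ˢ (univ : Set ℤ) <;> simp [hz, hb z]) he q
  have h1 := hM A (hT.commute hA he fun y m => by
    by_cases hy : y ∈ E <;> simp [indicator, hy, h y m]) f hf
  have h2 := (Submodule.mem_orthogonal' _ _).mp hg' _ h1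
  rw [L2.inner_def, integral_congr_ae (key hA)] at h2
  refine Eq.trans (integral_congr_ae (Eventually.of_forall fun z => ?_)) h2
  by_cases hz : z ∈ E ×ˢ (univ : Set ℤ) <;> simp [hz]

/-- The squared norm of a fibre. -/
noncomputable def NF (f : HH ν) (y : ℤ → X) : ℝ := ∫ m, ‖f (y, m)‖ ^ 2 ∂Measure.count

theorem NF_ae (f : HH ν) : ∀ᵐ y ∂PP ν, HasSum (fun m => ‖f (y, m)‖ ^ 2) (NF f y) := by
  have h1 := (memLp_two_iff_integrable_sq_norm (Lp.aestronglyMeasurable f)).mp (Lp.memLp f)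
  filter_upwards [h1.prod_right_ae] with y hy using hasSum_count hy

theorem good {f : HH ν} (hf : f ≠ 0) : ∃ (a : ℤ) (L : ℕ) (E : Set (ℤ → X)), MeasurableSet E ∧
    PP ν E ≠ 0 ∧ ∀ l : ℕ, L ≤ l → ∀ y ∈ E, (l : ℝ)⁻¹ ≤ ‖f (y, a)‖ ∧ NF f y ≤ (l : ℝ) ^ 2 := by
  have hm := Lp.stronglyMeasurable f
  have hN : Measurable (NF f) := (hm.norm.pow 2).integral_prod_right'.measurable
  set E : ℤ → ℕ → Set (ℤ → X) := fun a L =>
    {y | ((L + 1 : ℕ) : ℝ)⁻¹ ≤ ‖f (y, a)‖ ∧ NF f y ≤ ((L + 1 : ℕ) : ℝ) ^ 2} with hE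
  by_contra hcon
  push Not at hcon
  have h0 : ∀ a L, PP ν (E a L) = 0 := by
    intro a L
    by_contra h
    obtain ⟨l, hl, y, hy, h1⟩ := hcon a (L + 1) (E a L)
      ((measurableSet_le measurable_const
        (hm.measurable.comp measurable_prodMk_right).norm).inter
          (measurableSet_le hN measurable_const)) h
    have h2 : ((L + 1 : ℕ) : ℝ) ≤ l := by exact_mod_cast hl
    have h3 : (0 : ℝ) < (L + 1 : ℕ) := by positivity
    exact absurd (hy.2.trans (pow_le_pow_left₀ h3.le h2 2))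
      (not_le.mpr (h1 ((inv_anti₀ h3 h2).trans hy.1)))
  have h1 : ∀ᵐ y ∂PP ν, ∀ a L, y ∉ E a L :=
    ae_all_iff.mpr fun a => ae_all_iff.mpr fun L => measure_eq_zero_iff_ae_notMem.mp (h0 a L)
  refine hf (Lp.ext ?_)
  filter_upwards [Measure.quasiMeasurePreserving_fst.ae h1, Lp.coeFn_zero ℂ 2 (lam ν)]
    with z k1 k2
  rw [k2]
  by_contra h2
  have h3 : 0 < ‖f z‖ := norm_pos_iff.mpr h2
  obtain ⟨L, hL⟩ := exists_nat_ge (max ‖f z‖⁻¹ (NF f z.1))
  have h4 : (L : ℝ) ≤ (L + 1 : ℕ) := by exact_mod_cast Nat.le_succ L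
  have h5 : (1 : ℝ) ≤ (L + 1 : ℕ) := by exact_mod_cast Nat.succ_pos L
  refine k1 z.2 L ⟨inv_le_of_inv_le₀ h3 (((le_max_left _ _).trans hL).trans h4), ?_⟩
  have h6 := ((le_max_right _ _).trans hL).trans h4
  nlinarith

/-- The diagonal of the swap intertwiner. -/
noncomputable def dg (l : ℕ) (w : ℤ → ℝ) (a : ℤ) : ℝ := if 1 ≤ a ∧ a ≤ l then 1 else w l / w 0

theorem dg_swap {l : ℕ} (hl : 1 ≤ l) {w : ℤ → ℝ} (hw : w 0 ≠ 0) (a : ℤ) :
    dg l w (a + 1) * w (Equiv.swap 0 (l : ℤ) a) = w a * dg l w a := by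
  by_cases h0 : a = 0
  · subst h0
    rw [Equiv.swap_apply_left, dg, dg, if_pos (by omega), if_neg (by omega)]
    field_simp
  · by_cases h1 : a = l
    · subst h1
      rw [Equiv.swap_apply_right, dg, dg, if_neg (by omega), if_pos (by omega)]
      field_simp
    · rw [Equiv.swap_apply_of_ne_of_ne h0 h1, mul_comm, dg, dg]
      congr 1
      exact if_congr (by omega) rfl rfl

open Classical in
/-- The weight of the intertwiners. -/
noncomputable def rho (v : X → ℝ) (C : Set (ℤ → X)) (l i : ℕ) (z : (ℤ → X) × ℤ) : ℝ :=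
  if z.1 ∈ C then Wp (fun m => v (z.1 m)) i (z.2 - i) * dg l (fun m => v (z.1 m)) (z.2 - i) else 0

theorem measurable_rho {v : X → ℝ} (hv : Measurable v) {C : Set (ℤ → X)} (hC : MeasurableSet C)
    (l i : ℕ) : Measurable (rho v C l i) := by
  refine measurable_from_prod_countable_left fun m => ?_
  have h : ∀ a : ℤ, Measurable fun y : ℤ → X => v (y a) := fun a => hv.comp (measurable_pi_apply a)
  refine Measurable.ite hC (Measurable.mul (Finset.measurable_prod _ fun t _ => h (m - i + t)) ?_)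
    measurable_const
  exact Measurable.ite (MeasurableSet.const (1 ≤ m - i ∧ m - i ≤ l)) measurable_const ((h l).div (h 0))

omit [MeasurableSpace X] in
theorem rho_cocycle {v : X → ℝ} (hv : ∀ x, 0 < v x) (C : Set (ℤ → X)) {l : ℕ} (hl : 1 ≤ l)
    (i : ℕ) (q : ℤ) (y : ℤ → X) (m : ℤ) :
    rho v C l i (y, m) * v (y (sw l q (m - (q + i) - 1))) =
      v (y (m - 1)) * rho v C l i (y, m - 1) := by
  by_cases hy : y ∈ C
  · obtain ⟨a, rfl⟩ : ∃ a, m = a + 1 + i := ⟨m - 1 - i, by ring⟩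
    have h1 := Wp_shift (fun m => v (y m)) i a
    have h2 := dg_swap hl (w := fun m => v (y m)) (hv _).ne' a
    simp only [rho, if_pos hy, sw, add_sub_cancel_right,
      show a + 1 + i - (q + i) - 1 + q = a by ring,
      show a + 1 + (i : ℤ) - 1 = a + i by ring]
    rw [mul_assoc, h2, ← mul_assoc, h1]
    ring
  · simp [rho, hy]

end Vale.Agent.P131
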